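import Mathlib
import Crest.Prelude.Def_AndersonTree
import Crest.Agent.R164.Defs

/-!
# Row 166 (bulk GOE universality for random regular graphs, with weak disorder): definitions

See `notes166/R166.md` for the paper proof.  Conventions: `d = q + 1`, `q ≥ 2`; potentials are
`s * ω v` with `ω v ∈ II = [-1,1]` iid of law `π` (any probability measure on `II`).
-/

set_option autoImplicit false

open MeasureTheory ProbabilityTheory Filter Topology Complex
open scoped ENNReal NNReal BigOperators Matrix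

noncomputable section

namespace Crest.Agent.R166

/-! ## generic -/

instance matMS {m n α : Type} [MeasurableSpace α] : MeasurableSpace (Matrix m n α) :=
  inferInstanceAs (MeasurableSpace (m → n → α))

instance matBorel {m n α : Type} [Countable m] [Countable n] [TopologicalSpace α]
    [MeasurableSpace α] [SecondCountableTopology α] [BorelSpace α] : BorelSpace (Matrix m n α) :=
  inferInstanceAs (BorelSpace (m → n → α))

/-- the interval `[-1,1]` (values of the potential) -/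
abbrev II : Type := Set.Icc (-1 : ℝ) 1

/-- the point `0` of `II` -/
def II0 : II := ⟨0, by norm_num⟩

instance : Inhabited II := ⟨II0⟩

/-- the uniform law on `II` -/
def uII : Measure II :=
  ((2⁻¹ : ℝ≥0) • volume.restrict (Set.Icc (-1 : ℝ) 1)).map (Set.projIcc (-1 : ℝ) 1 (by norm_num))

/-- standard Gaussian vector (the `R164` definition) -/
abbrev gpi (ι : Type) [Fintype ι] : Measure (ι → ℝ) := Crest.Agent.R164.gpi ι

/-- `r` independent standard Gaussian vectors -/
def gpi2 (κ ι : Type) [Fintype κ] [Fintype ι] : Measure (κ → ι → ℝ) := Measure.pi fun _ => gpi ι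

instance (κ ι : Type) [Fintype κ] [Fintype ι] : IsProbabilityMeasure (gpi2 κ ι) := by
  unfold gpi2; infer_instance

/-- average of a real function over a finite type -/
def avg {ι : Type} [Fintype ι] (f : ι → ℝ) : ℝ := (∑ i, f i) / Fintype.card ι

open Classical in
/-- fraction of the indices satisfying `p` -/
def frac {ι : Type} [Fintype ι] (p : ι → Prop) : ℝ := avg fun i => if p i then (1 : ℝ) else 0

/-- empirical measure of a finite family -/
def emp {ι X : Type} [Fintype ι] [MeasurableSpace X] (f : ι → X) : Measure X :=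
  (Fintype.card ι : ℝ≥0∞)⁻¹ • ∑ i, Measure.dirac (f i)

open Classical in
/-- eigenvalues of a real symmetric matrix (`0` otherwise) -/
def ev {V : Type} [Fintype V] [DecidableEq V] (A : Matrix V V ℝ) : V → ℝ :=
  if h : A.IsHermitian then h.eigenvalues else 0

/-- the resolvent `(A - z)⁻¹` -/
def Gr {V : Type} [Fintype V] [DecidableEq V] (A : Matrix V V ℝ) (z : ℂ) : Matrix V V ℂ :=
  (A.map (fun x : ℝ => (x : ℂ)) - z • (1 : Matrix V V ℂ))⁻¹

/-- entrywise imaginary part -/
def imM {m n : Type} (A : Matrix m n ℂ) : Matrix m n ℝ := A.map Complex.im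

/-- the bulk `|E| ≤ 2√q - κ` -/
def Bulk (q : ℕ) (κ E : ℝ) : Prop := |E| ≤ 2 * √(q : ℝ) - κ

/-! ## pairing model -/

/-- half-edges -/
abbrev HE (V : Type) (q : ℕ) : Type := V × Fin (q + 1)

/-- pairings: fixed-point-free involutions of the half-edges -/
def Pairing (V : Type) (q : ℕ) : Type :=
  {σ : Equiv.Perm (HE V q) // ∀ h, σ (σ h) = h ∧ σ h ≠ h}

instance {V : Type} {q : ℕ} : CoeFun (Pairing V q) (fun _ => HE V q → HE V q) := ⟨fun σ => σ.1⟩

instance {V : Type} [Fintype V] [DecidableEq V] {q : ℕ} : Fintype (Pairing V q) := by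
  unfold Pairing; infer_instance

instance {V : Type} {q : ℕ} : MeasurableSpace (Pairing V q) := ⊤

instance {V : Type} {q : ℕ} : DiscreteMeasurableSpace (Pairing V q) := ⟨fun _ => trivial⟩

section
variable {V : Type} [Fintype V] [DecidableEq V] {q : ℕ}

/-- adjacency matrix of the multigraph (a loop contributes `2` to the diagonal) -/
def adj (σ : Pairing V q) : Matrix V V ℝ :=
  fun u v => ((Finset.univ.filter fun i : Fin (q + 1) => (σ (u, i)).1 = v).card : ℝ)

/-- no loops and no multiple edges -/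
def IsSimple (σ : Pairing V q) : Prop :=
  (∀ h, (σ h).1 ≠ h.1) ∧ ∀ h h' : HE V q, h.1 = h'.1 → (σ h).1 = (σ h').1 → h = h'

instance (σ : Pairing V q) : Decidable (IsSimple σ) := by unfold IsSimple; infer_instance

/-- configurations: pairing and potentials -/
abbrev Cfg (V : Type) (q : ℕ) : Type := Pairing V q × (V → II)

/-- the law of a configuration (the zero measure when there is no pairing) -/
def cfgLaw (V : Type) [Fintype V] [DecidableEq V] (q : ℕ) (π : Measure II) : Measure (Cfg V q) :=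
  (uniformOn (Set.univ : Set (Pairing V q))).prod (Measure.pi fun _ => π)

/-- the operator `A + s diag ω` -/
def Hm (s : ℝ) (c : Cfg V q) : Matrix V V ℝ := adj c.1 + Matrix.diagonal fun v => s * (c.2 v : ℝ)

/-- move to another half-edge at the same vertex -/
def rot (h : HE V q) (k : Fin (q + 1)) : HE V q := (h.1, h.2 + k)

/-- non-backtracking walks behind the half-edge `h` (the walk never uses the edge of `h` first) -/
def walk (σ : Pairing V q) : HE V q → List (Fin q) → HE V q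
  | h, [] => h
  | h, j :: l => walk σ (σ (rot h j.succ)) l

/-- the 2-switch: `a ~ σ a`, `b ~ σ b` become `a ~ σ b`, `b ~ σ a` (conjugation by `swap a b`;
nothing happens when `b = a` or `b = σ a`) -/
def switch (σ : Pairing V q) (a b : HE V q) : Pairing V q :=
  ⟨Equiv.swap a b * σ.1 * Equiv.swap a b, fun h => by
    refine ⟨?_, ?_⟩
    · simp [Equiv.Perm.mul_apply, (σ.2 _).1]
    · intro hh
      have h1 : σ.1 (Equiv.swap a b h) = Equiv.swap a b h := by
        have := congrArg (Equiv.swap a b) hh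
        simpa [Equiv.Perm.mul_apply] using this
      exact (σ.2 _).2 h1⟩

end

/-! ## environments (potentials seen on the tree) -/

/-- potentials on the rooted `q`-ary tree -/
abbrev Env (q : ℕ) : Type := List (Fin q) → II

/-- the subtree at child `j` -/
def child {q : ℕ} (β : Env q) (j : Fin q) : Env q := fun l => β (j :: l)

/-- a root with prescribed subtrees -/
def cons {q : ℕ} (a : II) (β : Fin q → Env q) : Env q
  | [] => a
  | j :: l => β j l

/-- iid environment -/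
def envLaw (q : ℕ) (π : Measure II) : Measure (Env q) := Measure.infinitePi fun _ => π

/-- the environment seen from a vertex with its `q+1` subtrees (indexed from a base half-edge) -/
abbrev SEnv (q : ℕ) : Type := II × (Fin (q + 1) → Env q)

/-- the environment seen from an oriented edge: (near side, far side) -/
abbrev EEnv (q : ℕ) : Type := Env q × Env q

def starLaw (q : ℕ) (π : Measure II) : Measure (SEnv q) :=
  π.prod (Measure.pi fun _ => envLaw q π)

def edgeLaw (q : ℕ) (π : Measure II) : Measure (EEnv q) := (envLaw q π).prod (envLaw q π)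

/-- the near side of the `i`-th edge of a star -/
def nearV {q : ℕ} (e : SEnv q) (i : Fin (q + 1)) : Env q := cons e.1 fun j => e.2 (i + j.succ)

/-- index set of a star: centre and `q+1` neighbours -/
abbrev SI (q : ℕ) : Type := Option (Fin (q + 1))

section
variable {V : Type} [Fintype V] [DecidableEq V] {q : ℕ}

/-- the potentials seen behind the half-edge `h` (root = the vertex of `h`) -/
def view (c : Cfg V q) (h : HE V q) : Env q := fun l => c.2 (walk c.1 h l).1

/-- the star at the vertex of `h`, neighbour `k` being reached through `rot h k` -/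
def sview (c : Cfg V q) (h : HE V q) : SEnv q := (c.2 h.1, fun k => view c (c.1 (rot h k)))

/-- the oriented edge of `h` -/
def eview (c : Cfg V q) (h : HE V q) : EEnv q := (view c h, view c (c.1 h))

/-- the vertices of the star of `h` -/
def sp (σ : Pairing V q) (h : HE V q) : SI q → V
  | none => h.1
  | some k => (σ (rot h k)).1

/-- the two endpoints of the edge of `h` -/
def ep (σ : Pairing V q) (h : HE V q) : Fin 2 → V := ![h.1, (σ h).1]

/-- the depth-`R` neighbourhood of the vertex of `h` is a tree -/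
def TreeLike (σ : Pairing V q) (R : ℕ) (h : HE V q) : Prop :=
  (∀ (k : Fin (q + 1)) (l : List (Fin q)), l.length ≤ R → (walk σ (σ (rot h k)) l).1 ≠ h.1) ∧
  ∀ (k k' : Fin (q + 1)) (l l' : List (Fin q)), l.length ≤ R → l'.length ≤ R →
    (walk σ (σ (rot h k)) l).1 = (walk σ (σ (rot h k')) l').1 → k = k' ∧ l = l'

/-- `r` exact eigenvectors, orthonormal up to the factor `√n`, with eigenvalues within `A/n` of `E` -/
def IsFrame (s E A : ℝ) (c : Cfg V q) {r : ℕ} (u : Fin r → V → ℝ) : Prop :=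
  (∀ a, ∃ lam : ℝ, Hm s c *ᵥ u a = lam • u a ∧ |lam - E| ≤ A / Fintype.card V) ∧
  ∀ a b, ∑ v, u a v * u b v = if a = b then (Fintype.card V : ℝ) else 0

end

/-- star states: environment and the values of `r` vectors on the star -/
abbrev SState (q r : ℕ) : Type := SEnv q × (Fin r → SI q → ℝ)

/-- edge states -/
abbrev EState (q r : ℕ) : Type := EEnv q × (Fin r → Fin 2 → ℝ)

/-- the `i`-th edge of a star state -/
def edgeOf {q r : ℕ} (i : Fin (q + 1)) (x : SState q r) : EState q r :=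
  ((nearV x.1 i, x.1.2 i), fun a => ![x.2 a none, x.2 a (some i)])

/-- re-basing a star state at the next half-edge -/
def rotS {q r : ℕ} (k : Fin (q + 1)) (x : SState q r) : SState q r :=
  ((x.1.1, fun i => x.1.2 (k + i)), fun a o => x.2 a (o.map fun i => k + i))

/-- reversing an edge state -/
def swapE {q r : ℕ} (x : EState q r) : EState q r :=
  ((x.1.2, x.1.1), fun a => ![x.2 a 1, x.2 a 0])

/-- coordinatewise truncation of the vectors -/
def clipS {q r : ℕ} (K : ℝ) (x : SState q r) : SState q r :=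
  (x.1, fun a o => max (-K) (min K (x.2 a o)))

section
variable {V : Type} [Fintype V] [DecidableEq V] {q r : ℕ}

/-- empirical law of the star states -/
def empS (c : Cfg V q) (u : Fin r → V → ℝ) : Measure (SState q r) :=
  emp fun h : HE V q => (sview c h, fun a o => u a (sp c.1 h o))

/-- empirical law of the edge states -/
def empE (c : Cfg V q) (u : Fin r → V → ℝ) : Measure (EState q r) :=
  emp fun h : HE V q => (eview c h, fun a o => u a (ep c.1 h o))

end

/-- `p` holds with high probability on simple configurations -/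
def Whp (q : ℕ) (π : Measure II) (p : ∀ n : ℕ, Cfg (Fin n) q → Prop) : Prop :=
  Tendsto (fun n => cfgLaw (Fin n) q π {c | IsSimple c.1 ∧ ¬ p n c}) atTop (𝓝 0)

/-! ## tree recursion -/

/-- the cavity recursion map -/
def Psi {q : ℕ} (s : ℝ) (z : ℂ) (a : II) (Y : Fin q → ℂ) : ℂ := -(z - s * (a : ℝ) + ∑ j, Y j)⁻¹

/-- truncated recursion with boundary value `i` -/
def mIt {q : ℕ} (s : ℝ) (z : ℂ) : ℕ → Env q → ℂ
  | 0, _ => I
  | k + 1, β => Psi s z (β []) fun j => mIt s z k (child β j)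

/-- cavity Green function of the tree, `Im z > 0` -/
def mT {q : ℕ} (s : ℝ) (z : ℂ) (β : Env q) : ℂ := limUnder atTop fun k => mIt s z k β

/-- the spectral parameters `E + i 2^{-k}` -/
def zk (E : ℝ) (k : ℕ) : ℂ := E + ((2 : ℝ)⁻¹ ^ k : ℝ) * I

/-- boundary value of the cavity Green function at a real energy -/
def mB {q : ℕ} (s E : ℝ) (β : Env q) : ℂ := limUnder atTop fun k => mT s (zk E k) β

/-- Green function of the tree on a star, from the potential `a` at the centre and cavity values -/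
def GamS {q : ℕ} (s : ℝ) (z : ℂ) (a : II) (m : Fin (q + 1) → ℂ) : Matrix (SI q) (SI q) ℂ
  | none, none => Psi s z a m
  | none, some j => -(m j * Psi s z a m)
  | some i, none => -(m i * Psi s z a m)
  | some i, some j => (if i = j then m i else 0) + m i * m j * Psi s z a m

/-- Green function of the tree on an edge, from the near and far cavity values -/
def GamE (m' m : ℂ) : Matrix (Fin 2) (Fin 2) ℂ :=
  !![m' / (1 - m' * m), -(m' * m) / (1 - m' * m); -(m' * m) / (1 - m' * m), m / (1 - m' * m)]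

/-- star Green function at `z`, `Im z > 0` -/
def GS {q : ℕ} (s : ℝ) (z : ℂ) (e : SEnv q) : Matrix (SI q) (SI q) ℂ :=
  GamS s z e.1 fun i => mT s z (e.2 i)

/-- edge Green function at `z`, `Im z > 0` -/
def GE {q : ℕ} (s : ℝ) (z : ℂ) (e : EEnv q) : Matrix (Fin 2) (Fin 2) ℂ :=
  GamE (mT s z e.1) (mT s z e.2)

/-- averaged diagonal Green function of the tree -/
def gbar (q : ℕ) (π : Measure II) (s : ℝ) (z : ℂ) : ℂ := ∫ e, GS s z e none none ∂starLaw q π

/-- density of states at a bulk energy -/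
def rho (q : ℕ) (π : Measure II) (s E : ℝ) : ℝ :=
  (∫ e, (Psi s E e.1 fun i => mB s E (e.2 i)).im ∂starLaw q π) / Real.pi

/-- the Bethe expression `E log det Im Γ_star - (d/2) E log det Im Γ_edge` -/
def hBethe (q : ℕ) (π : Measure II) (s : ℝ) (z : ℂ) : ℝ :=
  ∫ e, Real.log (imM (GS s z e)).det ∂starLaw q π -
    ((q : ℝ) + 1) / 2 * ∫ e, Real.log (imM (GE s z e)).det ∂edgeLaw q π

/-- lower triangular square root of a positive `2 × 2` matrix -/
def chol2 (C : Matrix (Fin 2) (Fin 2) ℝ) : Matrix (Fin 2) (Fin 2) ℝ :=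
  !![√(C 0 0), 0; C 1 0 / √(C 0 0), √(C 1 1 - C 1 0 ^ 2 / C 0 0)]

/-- the Gaussian wave on an edge: conditionally on the environment, `r` independent centred
Gaussian vectors with covariance `Im Γ_edge(E + i0) / (π ρ)` -/
def waveE (q r : ℕ) (π : Measure II) (s E : ℝ) : Measure (EState q r) :=
  ((edgeLaw q π).prod (gpi2 (Fin r) (Fin 2))).map fun p =>
    (p.1, fun a => (√(Real.pi * rho q π s E))⁻¹ •
      (chol2 (imM (GamE (mB s E p.1.1) (mB s E p.1.2))) *ᵥ p.2 a))

/-- the tree facts at a real energy used by the other blocks -/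
structure TreeOK (q : ℕ) (π : Measure II) (s E : ℝ) : Prop where
  meas : Measurable (mB (q := q) s E)
  pos : ∀ᵐ β ∂envLaw q π, 0 < (mB s E β).im
  tend : ∀ᵐ β ∂envLaw q π, Tendsto (fun k => mT s (zk E k) β) atTop (𝓝 (mB s E β))
  recur : ∀ᵐ β ∂envLaw q π, mB s E β = Psi s E (β []) fun j => mB s E (child β j)
  integ : Integrable (fun e : SEnv q => (Psi s E e.1 fun i => mB s E (e.2 i)).im) (starLaw q π)
  rho_pos : 0 < rho q π s E

/-! ## the deterministic fixed point and the linearising coordinate -/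

/-- the root of `q m² + z m + 1 = 0` in the upper half plane -/
def m0 (q : ℕ) (z : ℂ) : ℂ := Classical.epsilon fun m : ℂ => 0 < m.im ∧ q * m ^ 2 + z * m + 1 = 0

/-- Koenigs coordinate -/
def uu (q : ℕ) (z Y : ℂ) : ℂ := (Y - m0 q z) / (Y - (m0 q z)⁻¹)

/-- hyperbolic size: `2 cosh d(Y, i)` -/
def hyp (Y : ℂ) : ℝ := (1 + ‖Y‖ ^ 2) / Y.im

/-- hyperbolic pseudo-distance `4 sinh² (d/2)` -/
def gam (Y Y' : ℂ) : ℝ := ‖Y - Y'‖ ^ 2 / (Y.im * Y'.im)

/-- the distributional recursion -/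
def T1 (q : ℕ) (π : Measure II) (s : ℝ) (z : ℂ) (ν : Measure ℂ) : Measure ℂ :=
  (π.prod (Measure.pi fun _ : Fin q => ν)).map fun p => Psi s z p.1 p.2

/-- the two-copy distributional recursion (same potential) -/
def T2 (q : ℕ) (π : Measure II) (s : ℝ) (z z' : ℂ) (μ : Measure (ℂ × ℂ)) : Measure (ℂ × ℂ) :=
  (π.prod (Measure.pi fun _ : Fin q => μ)).map fun p =>
    (Psi s z p.1 fun j => (p.2 j).1, Psi s z' p.1 fun j => (p.2 j).2)

/-! ## Gaussian channels -/

open scoped MatrixOrder in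
/-- positive square root of a real matrix -/
def msqrt {ι : Type} [Fintype ι] [DecidableEq ι] (C : Matrix ι ι ℝ) : Matrix ι ι ℝ := CFC.sqrt C

/-- `∫ φ(e, U + C(e)^{1/2} W)`, the states being distributed as `P`, `W` standard Gaussian -/
def nInt {X ι : Type} [MeasurableSpace X] [Fintype ι] [DecidableEq ι] {r : ℕ}
    (P : Measure (X × (Fin r → ι → ℝ))) (C : X → Matrix ι ι ℝ) (φ : X × (Fin r → ι → ℝ) → ℝ) : ℝ :=
  ∫ p, ∫ W, φ (p.1, fun a => p.2 a + msqrt (C p.1) *ᵥ W a) ∂gpi2 (Fin r) ι ∂P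

/-- the entropy inequality (star versus edge), in Donsker-Varadhan form -/
def EntIneq (q r : ℕ) (π : Measure II) (s : ℝ) (z : ℂ) (P : Measure (SState q r)) : Prop :=
  ∀ (φ : BoundedContinuousFunction (SState q r) ℝ) (c : ℝ),
    (∀ ψ : EState q r → ℝ, Measurable ψ → (∃ B, ∀ x, |ψ x| ≤ B) →
      nInt (P.map (edgeOf 0)) (fun e => imM (GE s z e)) ψ -
        Real.log (∫ x, Real.exp (ψ x) ∂(edgeLaw q π).prod (gpi2 (Fin r) (Fin 2))) ≤ c) →
    nInt P (fun e => imM (GS s z e)) φ -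
        Real.log (∫ x, Real.exp (φ x) ∂(starLaw q π).prod (gpi2 (Fin r) (SI q))) ≤
      ((q : ℝ) + 1) / 2 * c - r / 2 * (Real.log (2 * Real.pi * Real.exp 1) + hBethe q π s z) +
        nInt P (fun e => imM (GS s z e))
          (fun x => ∑ a, (Real.log (2 * Real.pi) / 2 + x.2 a none ^ 2 / 2))

/-- `|y + m x|² / Im m` -/
def qf (m : ℂ) (x y : ℝ) : ℝ := ‖(y : ℂ) + m * x‖ ^ 2 / m.im

/-- posterior mean for the prior `κ` and the weight `exp (-γ Q(x - u) / 2)` -/
def pmean {ι : Type} [Fintype ι] {r : ℕ} (κ : Measure (Fin r → ι → ℝ)) (Q : (ι → ℝ) → ℝ) (γ : ℝ)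
    (x : Fin r → ι → ℝ) (a : Fin r) (o : ι) : ℝ :=
  (∫ u, u a o * Real.exp (-(γ * ∑ b, Q (x b - u b)) / 2) ∂κ) /
    ∫ u, Real.exp (-(γ * ∑ b, Q (x b - u b)) / 2) ∂κ

/-- the star precision form at a real energy (on the eigenfunction hyperplane) -/
def QS0 {q : ℕ} (s E : ℝ) (e : SEnv q) (x : SI q → ℝ) : ℝ :=
  ∑ j, qf (mB s E (e.2 j)) (x none) (x (some j))

/-- the precision form of the `i`-th edge at a real energy, read on star coordinates -/
def QE0 {q : ℕ} (s E : ℝ) (e : SEnv q) (i : Fin (q + 1)) (x : SI q → ℝ) : ℝ :=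
  qf (mB s E (e.2 i)) (x none) (x (some i)) + qf (mB s E (nearV e i)) (x (some i)) (x none)

/-- the eigenvalue equation at the centre of a star -/
def EigS {q : ℕ} (s E : ℝ) (e : SEnv q) (x : SI q → ℝ) : Prop :=
  (s * (e.1 : ℝ) - E) * x none + ∑ j, x (some j) = 0

/-- properties of a limit of empirical star laws of eigenvector frames -/
structure IsLimit (q r : ℕ) (π : Measure II) (s E : ℝ) (P : Measure (SState q r)) : Prop where
  prob : IsProbabilityMeasure P
  env : P.map Prod.fst = starLaw q π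
  rot : ∀ k, P.map (rotS k) = P
  swap : (P.map (edgeOf 0)).map swapE = P.map (edgeOf 0)
  sq : ∀ a o, Integrable (fun x : SState q r => x.2 a o ^ 2) P
  orth : ∀ a b, ∫ x, x.2 a none * x.2 b none ∂P = if a = b then 1 else 0
  eig : ∀ᵐ x ∂P, ∀ a, EigS s E x.1 (x.2 a)
  mean : ∀ (φ : C(SEnv q, ℝ)) a, ∫ x, φ x.1 * x.2 a none ∂P = 0

/-- star and edge posterior means agree on the eigenfunction hyperplane -/
def PMeq (q r : ℕ) (π : Measure II) (s E : ℝ) (P : Measure (SState q r)) [IsFiniteMeasure P] :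
    Prop :=
  ∃ γ : ℝ, 0 < γ ∧ ∀ᵐ e ∂starLaw q π, ∀ (i : Fin (q + 1)) (x : Fin r → SI q → ℝ),
    (∀ a, EigS s E e (x a)) → ∀ a,
      pmean (P.condKernel e) (QS0 s E e) γ x a none = pmean (P.condKernel e) (QE0 s E e i) γ x a none ∧
      pmean (P.condKernel e) (QS0 s E e) γ x a (some i) =
        pmean (P.condKernel e) (QE0 s E e i) γ x a (some i)

/-! ## the K-matrix model -/

/-- Cayley transform `(K - i)(K + i)⁻¹` -/
def cay {ι : Type} [Fintype ι] [DecidableEq ι] (K : Matrix ι ι ℝ) : Matrix ι ι ℂ :=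
  1 - (2 * I) • (K.map (fun x : ℝ => (x : ℂ)) + I • (1 : Matrix ι ι ℂ))⁻¹

/-- `π⁻¹ ∑ b(x_i) g_i g_iᵀ` -/
def modelK {n : ℕ} {ι : Type} (b : ℝ → ℝ) (x : Fin n → ℝ) (g : Fin n → ι → ℝ) : Matrix ι ι ℝ :=
  fun a c => Real.pi⁻¹ * ∑ i, b (x i) * (g i a * g i c)

/-- expectation of `F` of the model `S`-matrix, with a uniform shift `t ∈ [0, δ]` -/
def modelE {n : ℕ} {ι : Type} [Fintype ι] [DecidableEq ι] (b : ℝ → ℝ) (δ : ℝ)
    (F : Matrix ι ι ℂ → ℝ) (ξ : Fin n → ℝ) : ℝ :=
  δ⁻¹ * ∫ t in (0 : ℝ)..δ, ∫ g, F (cay (modelK b (fun i => ξ i - t) g)) ∂gpi2 (Fin n) ι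

/-- the cut-off inverse `1/x - x/(x² + L²)` -/
def bL (L x : ℝ) : ℝ := L ^ 2 / (x * (x ^ 2 + L ^ 2))

/-- admissible families of cut-off inverses -/
def GoodB (b : ℝ → ℝ → ℝ) : Prop :=
  (∀ L, Measurable (b L)) ∧ (∀ L x, |b L x| ≤ |x|⁻¹) ∧
  ∀ R ε : ℝ, 0 < ε → ∀ᶠ L in atTop, ∀ x, x ≠ 0 → |x| ≤ R → |x * b L x - 1| ≤ ε

/-- tightness of the local density at large microscopic scales -/
def H1 (n : ℕ → ℕ) (P : ∀ j, Measure (Fin (n j) → ℝ)) : Prop :=
  ∀ ε : ℝ, 0 < ε → ∃ C : ℝ, ∀ᶠ R in (atTop : Filter ℝ), ∀ᶠ j in atTop,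
    P j {ξ | C < ∑ i, R / (ξ i ^ 2 + R ^ 2)} ≤ ENNReal.ofReal ε

/-- `W₀ ⊕ 1` -/
def blk {N₀ : ℕ} (W₀ : Matrix (Fin N₀) (Fin N₀) ℂ) (k : ℕ) :
    Matrix (Fin N₀ ⊕ Fin k) (Fin N₀ ⊕ Fin k) ℂ :=
  Matrix.fromBlocks W₀ 0 0 (1 : Matrix (Fin k) (Fin k) ℂ)

/-- asymptotic invariance of the model `S`-matrix under a non-real unitary -/
def H2 (n : ℕ → ℕ) (P : ∀ j, Measure (Fin (n j) → ℝ)) (b : ℝ → ℝ → ℝ) : Prop :=
  ∃ (N₀ : ℕ) (W₀ : Matrix (Fin N₀) (Fin N₀) ℂ), W₀ ∈ Matrix.unitaryGroup (Fin N₀) ℂ ∧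
    (∃ i j, (W₀ i j).im ≠ 0) ∧
    ∀ δ : ℝ, 0 < δ → δ ≤ 1 → ∀ k : ℕ, ∃ k' : ℕ, k ≤ k' ∧
      ∀ F : Matrix (Fin N₀ ⊕ Fin k') (Fin N₀ ⊕ Fin k') ℂ → ℝ, Continuous F → ∀ ε : ℝ, 0 < ε →
        ∀ᶠ L in (atTop : Filter ℝ), ∀ᶠ j in atTop,
          |∫ ξ, modelE (b L) δ F ξ ∂P j -
            ∫ ξ, modelE (b L) δ (fun S => F (blk W₀ k' * S * (blk W₀ k')ᵀ)) ξ ∂P j| ≤ ε

/-- law of the unfolded eigenvalues of the simple random regular graph with potential -/
def rrgLaw (q : ℕ) (π : Measure II) (s E : ℝ) (n : ℕ) : Measure (Fin n → ℝ) :=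
  ((cfgLaw (Fin n) q π)[|{c | IsSimple c.1}]).map fun c i =>
    n * rho q π s E * (ev (Hm s c) i - E)

/-- law of the unfolded GOE eigenvalues -/
def goeLaw (n : ℕ) : Measure (Fin n → ℝ) :=
  (Crest.ProbabilityR.RandomMatrix.goeDisorderLaw n).map fun g i =>
    n / Real.pi * ev (Crest.ProbabilityR.RandomMatrix.goeMatrix g) i

/-! ## outputs of the probabilistic blocks -/

/-- local law on stars down to `Im z = L/n` -/
def LL1 (q : ℕ) (π : Measure II) (s κ : ℝ) : Prop :=
  ∀ ε M : ℝ, 0 < ε → ∃ δ L₀ : ℝ, 0 < δ ∧ ∀ z₀ : ℂ, 0 < z₀.im → Bulk q κ z₀.re →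
    ∀ᶠ n : ℕ in atTop, ∀ z : ℂ, Bulk q κ z.re → ‖z - z₀‖ ≤ δ → 0 < z.im → L₀ / n ≤ z.im → z.im ≤ M →
      cfgLaw (Fin n) q π {c | IsSimple c.1 ∧ ε < frac fun h : HE (Fin n) q => ∃ a b,
        ε < ‖Gr (Hm s c) z (sp c.1 h a) (sp c.1 h b) - GS s z₀ (sview c h) a b‖} ≤ ENNReal.ofReal ε

/-- uniform integrability of bulk eigenvectors -/
def LL2 (q : ℕ) (π : Measure II) (s κ : ℝ) : Prop :=
  ∀ A ε : ℝ, 0 < ε → ∃ T : ℝ, ∀ E, Bulk q κ E → ∀ᶠ n : ℕ in atTop,
    cfgLaw (Fin n) q π {c | IsSimple c.1 ∧ ∃ (u : Fin n → ℝ) (lam : ℝ), Hm s c *ᵥ u = lam • u ∧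
      ∑ v, u v ^ 2 = n ∧ |lam - E| ≤ A / n ∧
      ε < avg fun v => if T < u v ^ 2 then u v ^ 2 else 0} ≤ ENNReal.ofReal ε

/-- tightness of the local density of states -/
def LL3 (q : ℕ) (π : Measure II) (s κ : ℝ) : Prop :=
  ∀ ε : ℝ, 0 < ε → ∃ C L₀ : ℝ, ∀ᶠ n : ℕ in atTop, ∀ z : ℂ, Bulk q κ z.re → 0 < z.im →
    L₀ / n ≤ z.im → z.im ≤ 1 →
      cfgLaw (Fin n) q π {c | IsSimple c.1 ∧ C < avg fun v => (Gr (Hm s c) z v v).im} ≤
        ENNReal.ofReal ε

/-- convergence of the log-determinant at a fixed `z` -/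
def LD (q : ℕ) (π : Measure II) (s : ℝ) (z : ℂ) : Prop :=
  ∀ ε : ℝ, 0 < ε → Whp q π fun n c =>
    |Real.log (imM (Gr (Hm s c) z)).det / n - hBethe q π s z| ≤ ε

/-- eigenvectors near `E` are asymptotically orthogonal to local functions of the environment -/
def ZOK (q : ℕ) (π : Measure II) (s E : ℝ) : Prop :=
  ∀ (φ : C(SEnv q, ℝ)) (A ε : ℝ), 0 < ε → Whp q π fun n c =>
    ∀ (u : Fin n → ℝ) (lam : ℝ), Hm s c *ᵥ u = lam • u → ∑ v, u v ^ 2 = n → |lam - E| ≤ A / n →
      |avg fun h : HE (Fin n) q => φ (sview c h) * u h.1| ≤ ε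

/-- the entropy inequality holds for limits along typical configurations -/
def B1Out (q : ℕ) (π : Measure II) (s : ℝ) (z : ℂ) : Prop :=
  ∀ (r : ℕ) (K : ℝ), ∃ G : ℕ → ∀ n : ℕ, Cfg (Fin n) q → Prop, (∀ j, Whp q π (G j)) ∧
    ∀ (n : ℕ → ℕ) (c : ∀ j, Cfg (Fin (n j)) q) (u : ∀ j, Fin r → Fin (n j) → ℝ)
      (μ : ℕ → ProbabilityMeasure (SState q r)) (P : ProbabilityMeasure (SState q r)),
      Tendsto n atTop atTop → (∀ j, IsSimple (c j).1 ∧ G j (n j) (c j)) →
      (∀ j a v, |u j a v| ≤ K) → (∀ j, (μ j : Measure (SState q r)) = empS (c j) (u j)) →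
      Tendsto μ atTop (𝓝 P) → EntIneq q r π s z P

/-- asymptotic Gaussianity of eigenvector frames -/
def BOut (q : ℕ) (π : Measure II) (s E : ℝ) : Prop :=
  ∀ (r : ℕ) (A : ℝ) (Q : ProbabilityMeasure (EState q r)), (Q : Measure (EState q r)) = waveE q r π s E →
    ∀ U ∈ 𝓝 Q, Whp q π fun n c => ∀ u : Fin r → Fin n → ℝ, IsFrame s E A c u →
      ∀ μ : ProbabilityMeasure (EState q r), (μ : Measure (EState q r)) = empE c u → μ ∈ U

/-- tree facts in the complex domain, at small disorder -/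
structure TreeSmall (q : ℕ) (π : Measure II) (s κ C : ℝ) : Prop where
  ok : ∀ E, Bulk q κ E → TreeOK q π s E
  small : ∀ z : ℂ, 0 < z.im → Bulk q κ z.re → ∫ β, ‖uu q z (mT s z β)‖ ^ 2 ∂envLaw q π ≤ C * s ^ 2
  tight : ∀ M : ℝ, ∃ B : ℝ, ∀ z : ℂ, 0 < z.im → z.im ≤ M → Bulk q κ z.re →
    ∫ β, hyp (mT s z β) ^ 2 ∂envLaw q π ≤ B
  unif : TendstoUniformlyOn (fun k E => (gbar q π s (zk E k)).im / Real.pi) (rho q π s) atTop
    {E | Bulk q κ E}

end Crest.Agent.R166
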