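import Crest.Agent.R166.Main
import Crest.Agent.R166.T0.Main
import Crest.Agent.R166.P.Main
import Crest.Agent.R166.Z.Main
import Crest.Agent.R166.C.Main
import Crest.Agent.R166.T.Main
import Crest.Agent.R166.DOS.Main
import Crest.Agent.R166.LD.Main
import Crest.Agent.R166.B0.Main
import Crest.Agent.R166.B1.Main
import Crest.Agent.R166.B2.Main
import Crest.Agent.R166.B3.Main
import Crest.Agent.R166.M.Main
import Crest.Agent.R166.G.Main
import Crest.Agent.R166.H.Main
import Crest.Agent.R166.LG.Main
import Crest.Agent.R166.LS.Main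
import Crest.Agent.R166.LT.Main
import Crest.Agent.R166.LR.Main
import Crest.Agent.R166.LM.Main

/-!
# Row 166: all blocks plugged together
-/

set_option autoImplicit false

namespace Crest.Agent.R166

theorem fin_T : StT := stT stT0 stEnv stC0 stC1 stC2 stC4

theorem fin_LL : StLL :=
  stLL stKit stZC stW (stStab stKit) (stGL stKit) stGX stView
    (stTB stKit stGX stSX stW (stStab stKit) (stGL stKit) stSW stZC)
    (stRDE stKit stGX stView stW (stStab stKit) (stGL stKit) stZC)
    stC0 stC1 stC2 stC3 fin_T stP3 stP4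

theorem fin_LD : StLD := stLD stE stP4 stT0 stEnv

theorem fin_B1 : StB1 := stB1 stE stP3 stT0

theorem fin_B0 : StB0 := stB0 stP4 (stB2 stT0 stEnv) (stB3 stEnv)

theorem fin_M : StM := stM stE stP1 stP5 stT0 stEnv

end Crest.Agent.R166
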