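import Crest.Agent.R166.Defs

/-!
# Row 166: block statements

Each block `X` proves `theorem stX : (inputs) → StX` in `Crest/Agent/R166/X/Main.lean`
(namespace `Crest.Agent.R166`), taking the other blocks' statements as hypotheses.
Proof recipes: `notes166/R166.md`.
-/

set_option autoImplicit false

open MeasureTheory ProbabilityTheory Filter Topology Complex
open scoped ENNReal NNReal BigOperators Matrix

noncomputable section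

namespace Crest.Agent.R166

open Crest.ProbabilityR.RandomMatrix

/-! ## E: eigenvalues -/

/-- measurability of the eigenvalues and the spectral decomposition of the resolvent -/
def StE : Prop :=
  ∀ (V : Type) [Fintype V] [DecidableEq V], Measurable (ev : Matrix V V ℝ → V → ℝ) ∧
    ∀ A : Matrix V V ℝ, A.IsHermitian → ∃ u : V → V → ℝ,
      (∀ i, A *ᵥ u i = ev A i • u i) ∧ (∀ i j, ∑ v, u i v * u j v = if i = j then 1 else 0) ∧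
      (∀ x y, ∑ i, u i x * u i y = if x = y then 1 else 0) ∧
      ∀ z : ℂ, (∀ i, (ev A i : ℂ) ≠ z) → ∀ x y,
        Gr A z x y = ∑ i, (u i x * u i y : ℝ) / ((ev A i : ℂ) - z)

/-! ## P: pairing model -/

/-- simple pairings have probability bounded below -/
def StP1 : Prop :=
  ∀ q : ℕ, ∃ c : ℝ, 0 < c ∧ ∀ᶠ n : ℕ in atTop, Even (n * (q + 1)) →
    ENNReal.ofReal c ≤ uniformOn (Set.univ : Set (Pairing (Fin n) q)) {σ | IsSimple σ}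

open Classical in
/-- the uniform simple graph is the pairing model conditioned on being simple -/
def StP2 : Prop :=
  ∀ (n q : ℕ) (F : SimpleGraph (Fin n) → ℝ) (F' : Matrix (Fin n) (Fin n) ℝ → ℝ),
    (∀ G, F G = F' (G.adjMatrix ℝ)) →
    regularAverage n (q + 1) F =
      ∫ σ, F' (adj σ) ∂uniformOn {σ : Pairing (Fin n) q | IsSimple σ}

/-- short cycles are rare -/
def StP3 : Prop :=
  ∀ q R : ℕ, ∃ C : ℝ, ∀ (V : Type) [Fintype V] [DecidableEq V],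
    (avg fun σ : Pairing V q => frac fun h : HE V q => ¬ TreeLike σ R h) ≤ C / Fintype.card V

/-- law of large numbers for the environment (no simplicity assumption; implies the `Whp` form) -/
def StP4 : Prop :=
  ∀ (q : ℕ) (π : Measure II) [IsProbabilityMeasure π] (φ : C(SEnv q, ℝ)) (ε : ℝ), 0 < ε →
    Tendsto (fun n => cfgLaw (Fin n) q π
      {c | ε < |(avg fun h : HE (Fin n) q => φ (sview c h)) - ∫ e, φ e ∂starLaw q π|}) atTop (𝓝 0)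

/-- a random switch changes neither simplicity nor the finite-depth walks -/
def StP5 : Prop :=
  ∀ q R : ℕ, ∃ C : ℝ, ∀ (V : Type) [Fintype V] [DecidableEq V],
    (avg fun σ : Pairing V q => frac fun p : HE V q × HE V q =>
      ¬ (IsSimple (switch σ p.1 p.2) ↔ IsSimple σ)) ≤ C / Fintype.card V ∧
    (avg fun σ : Pairing V q => frac fun p : HE V q × HE V q =>
      ∃ h ∈ [p.1, p.2, σ p.1, σ p.2], ∃ l : List (Fin q), l.length ≤ R ∧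
        walk (switch σ p.1 p.2) h l ≠ walk σ h l) ≤ C / Fintype.card V ∧
    (avg fun σ : Pairing V q => frac fun p : (HE V q × HE V q) × HE V q =>
      switch σ p.1.1 p.1.2 p.2 ≠ σ p.2 ∨ ∃ h ∈ [p.2, σ p.2], ∃ l : List (Fin q), l.length ≤ R ∧
        walk (switch σ p.1.1 p.1.2) h l ≠ walk σ h l) ≤ C / Fintype.card V

/-! ## Env: measure-preserving maps of environments -/

def StEnv : Prop :=
  ∀ (q : ℕ) (π : Measure II) [IsProbabilityMeasure π],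
    MeasurePreserving (fun p : II × (Fin q → Env q) => cons p.1 p.2)
      (π.prod (Measure.pi fun _ => envLaw q π)) (envLaw q π) ∧
    MeasurePreserving (fun β : Env q => (β [], fun j => child β j)) (envLaw q π)
      (π.prod (Measure.pi fun _ => envLaw q π)) ∧
    (∀ i, MeasurePreserving (fun e : SEnv q => (nearV e i, e.2 i)) (starLaw q π) (edgeLaw q π)) ∧
    (∀ k, MeasurePreserving (fun e : SEnv q => (e.1, fun i => e.2 (k + i))) (starLaw q π)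
      (starLaw q π))

/-! ## Z: mean zero -/

def StZ0 : Prop :=
  ∀ (q : ℕ) (κ s E : ℝ), 2 ≤ q → 0 < κ → Bulk q κ E → ZOK q (Measure.dirac II0) s E

def StZ1 : Prop := ∀ (q : ℕ) (s E : ℝ), 0 < s → ZOK q uII s E

/-! ## T0: the tree recursion off the real axis -/

def StT0 : Prop :=
  ∀ (q : ℕ) (s : ℝ), 0 ≤ s → s ≤ 1 →
    (∀ z : ℂ, 0 < z.im →
      TendstoUniformly (fun k => mIt (q := q) s z k) (mT s z) atTop ∧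
      Continuous (mT (q := q) s z) ∧
      ∀ β : Env q, 0 < (mT s z β).im ∧ ‖mT s z β‖ ≤ z.im⁻¹ ∧
        mT s z β = Psi s z (β []) fun j => mT s z (child β j)) ∧
    ∀ η M : ℝ, 0 < η → ∃ c C : ℝ, 0 < c ∧ ∀ z z' : ℂ, η ≤ z.im → η ≤ z'.im → ‖z‖ ≤ M → ‖z'‖ ≤ M →
      ∀ β : Env q, c ≤ (mT s z β).im ∧ ‖mT s z β - mT s z' β‖ ≤ C * ‖z - z'‖

/-! ## C: contraction estimates in the coordinate `uu` -/

def StC0 : Prop :=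
  ∀ (q : ℕ) (κ : ℝ), 2 ≤ q → 0 < κ → ∃ Λ : ℝ, 1 ≤ Λ ∧
    (∀ z : ℂ, 0 ≤ z.im → Bulk q κ z.re →
      0 < (m0 q z).im ∧ q * m0 q z ^ 2 + z * m0 q z + 1 = 0 ∧
      (∀ Y : ℂ, 0 < Y.im → ‖uu q z Y‖ ≤ Λ) ∧
      (∀ Y Y' : ℂ, 0 < Y.im → 0 < Y'.im → ‖uu q z Y - uu q z Y'‖ ^ 2 ≤ Λ * gam Y Y') ∧
      (∀ Y : ℂ, 0 < Y.im → 0 < z.im → ‖Y‖ ≤ z.im⁻¹ → ‖uu q z Y‖ ≤ 2 / z.im ^ 2) ∧
      ∀ z' : ℂ, 0 ≤ z'.im → Bulk q κ z'.re → ‖m0 q z - m0 q z'‖ ≤ Λ * ‖z - z'‖ ∧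
        ∀ Y : ℂ, 0 < Y.im → ‖uu q z Y - uu q z' Y‖ ≤ Λ * ‖z - z'‖) ∧
    ∀ M : ℝ, (∃ u₀ T₀ : ℝ, 0 < u₀ ∧ ∀ z : ℂ, 0 ≤ z.im → z.im ≤ M → Bulk q κ z.re →
        ∀ Y : ℂ, 0 < Y.im → ‖uu q z Y‖ ≤ u₀ → hyp Y ≤ T₀) ∧
      ∀ T ε : ℝ, 0 < ε → ∃ δ : ℝ, 0 < δ ∧ ∀ z : ℂ, 0 ≤ z.im → z.im ≤ M → Bulk q κ z.re →
        ∀ Y Y' : ℂ, 0 < Y.im → 0 < Y'.im → hyp Y' ≤ T → ‖uu q z Y - uu q z Y'‖ ≤ δ →
          ‖Y - Y'‖ ≤ ε

/-- one-copy self-improvement -/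
def StC1 : Prop :=
  ∀ (q : ℕ) (κ : ℝ), 2 ≤ q → 0 < κ → ∃ x₁ C : ℝ, 0 < x₁ ∧
    ∀ (z : ℂ) (s θ : ℝ) (π : Measure II) [IsProbabilityMeasure π] (ν : Measure ℂ)
      [IsProbabilityMeasure ν], 0 < z.im → Bulk q κ z.re → 0 ≤ s → s ≤ x₁ → 0 ≤ θ → θ ≤ 1 →
      (∀ᵐ Y ∂ν, 0 < Y.im) → ∫ Y, ‖uu q z Y‖ ^ 2 ∂ν ≤ x₁ →
      ‖∫ Y, uu q z Y ∂ν - ∫ Y, uu q z Y ∂T1 q π s z ν‖ ≤ θ →
      |∫ Y, ‖uu q z Y‖ ^ 2 ∂ν - ∫ Y, ‖uu q z Y‖ ^ 2 ∂T1 q π s z ν| ≤ θ →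
      ∫ Y, ‖uu q z Y‖ ^ 2 ∂ν ≤ C * (s ^ 2 + θ)

/-- bounded functions of two points of the upper half plane, Lipschitz for `gam` -/
def GLip (Λ : ℝ) (F : ℂ × ℂ → ℝ) : Prop :=
  Measurable F ∧ (∀ p, |F p| ≤ 1) ∧ ∀ p p' : ℂ × ℂ, 0 < p.1.im → 0 < p.2.im → 0 < p'.1.im →
    0 < p'.2.im → |F p - F p'| ^ 2 ≤ Λ * (gam p.1 p'.1 + gam p.2 p'.2)

/-- two-copy contraction: approximate joint fixed points are close to the diagonal -/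
def StC2 : Prop :=
  ∀ (q : ℕ) (κ M : ℝ), 2 ≤ q → 0 < κ → ∃ x₂ C : ℝ, 0 < x₂ ∧ ∀ ε : ℝ, 0 < ε →
    ∃ (J : ℕ) (θ Λ : ℝ), 0 < θ ∧ ∀ z : ℂ, 0 < z.im → z.im ≤ M → Bulk q κ z.re →
      ∃ F : Fin J → ℂ × ℂ → ℝ, (∀ j, GLip Λ (F j)) ∧
        ∀ (z' : ℂ) (s : ℝ) (π : Measure II) [IsProbabilityMeasure π] (μ : Measure (ℂ × ℂ))
          [IsProbabilityMeasure μ], 0 < z'.im → ‖z - z'‖ ≤ x₂ → 0 ≤ s → s ≤ x₂ →
          (∀ᵐ p ∂μ, 0 < p.1.im ∧ 0 < p.2.im) →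
          ∫ p, ‖uu q z p.1‖ ^ 2 ∂μ ≤ x₂ → ∫ p, ‖uu q z p.2‖ ^ 2 ∂μ ≤ x₂ →
          (∀ j, |∫ p, F j p ∂μ - ∫ p, F j p ∂T2 q π s z z' μ| ≤ θ) →
          ∫ p, ‖uu q z p.1 - uu q z p.2‖ ^ 2 ∂μ ≤ C * ‖z - z'‖ ^ 2 + ε

/-- two-copy contraction far from the real axis -/
def StC3 : Prop :=
  ∀ (q : ℕ) (κ : ℝ), 2 ≤ q → 0 < κ → ∃ M₀ C : ℝ, 2 ≤ M₀ ∧
    ∀ (z z' : ℂ) (s θ : ℝ) (π : Measure II) [IsProbabilityMeasure π] (μ : Measure (ℂ × ℂ))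
      [IsProbabilityMeasure μ], M₀ ≤ z.im → Bulk q κ z.re → ‖z - z'‖ ≤ 1 → 0 ≤ s → s ≤ 1 →
      (∀ᵐ p ∂μ, 0 < p.1.im ∧ 0 < p.2.im ∧ ‖p.1‖ ≤ 1 ∧ ‖p.2‖ ≤ 1) →
      |∫ p, ‖uu q z p.1 - uu q z p.2‖ ^ 2 ∂μ -
        ∫ p, ‖uu q z p.1 - uu q z p.2‖ ^ 2 ∂T2 q π s z z' μ| ≤ θ →
      ∫ p, ‖uu q z p.1 - uu q z p.2‖ ^ 2 ∂μ ≤ C * ‖z - z'‖ ^ 2 + 2 * θ

/-- moments of exact fixed points -/
def StC4 : Prop :=
  ∀ (q : ℕ) (κ M : ℝ), 2 ≤ q → 0 < κ → ∃ x₄ C : ℝ, 0 < x₄ ∧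
    ∀ (z : ℂ) (s : ℝ) (π : Measure II) [IsProbabilityMeasure π] (ν : Measure ℂ)
      [IsProbabilityMeasure ν], 0 < z.im → z.im ≤ M → Bulk q κ z.re → 0 ≤ s → s ≤ 1 →
      (∀ᵐ Y ∂ν, 0 < Y.im) → T1 q π s z ν = ν → ∫ Y, ‖uu q z Y‖ ^ 2 ∂ν ≤ x₄ →
      ∫⁻ Y, ENNReal.ofReal (hyp Y ^ 2) ∂ν ≤ ENNReal.ofReal C

/-! ## T: the tree at small disorder, density of states -/

def StT : Prop :=
  ∀ (q : ℕ) (κ : ℝ), 2 ≤ q → 0 < κ → ∃ s₀ C : ℝ, 0 < s₀ ∧ s₀ ≤ 1 ∧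
    ∀ (s : ℝ) (π : Measure II) [IsProbabilityMeasure π], 0 ≤ s → s ≤ s₀ → TreeSmall q π s κ C

/-- the density-of-states measure has Stieltjes transform `gbar` -/
def StDOS : Prop :=
  ∀ (q : ℕ) (s : ℝ), 0 ≤ s → s ≤ 1 → ∃ ν : Measure ℝ, IsTreeDOS (q + 1) s ν ∧
    ∀ z : ℂ, 0 < z.im → ∫ x, ((x : ℂ) - z)⁻¹ ∂ν = gbar q uII s z

/-- Stieltjes inversion -/
def StInv : Prop :=
  ∀ (ν : Measure ℝ) [IsProbabilityMeasure ν] (ρ : ℝ → ℝ) (a b : ℝ),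
    TendstoUniformlyOn (fun k E => (∫ x, ((x : ℂ) - zk E k)⁻¹ ∂ν).im / Real.pi) ρ atTop
      (Set.Icc a b) →
    ContinuousOn ρ (Set.Icc a b) ∧
    ν.restrict (Set.Ioo a b) =
      (volume.restrict (Set.Ioo a b)).withDensity fun t => ENNReal.ofReal (ρ t)

/-- without disorder the density is the Kesten-McKay density -/
def StKM : Prop :=
  ∀ (q : ℕ) (κ E : ℝ), 2 ≤ q → 0 < κ → Bulk q κ E →
    rho q (Measure.dirac II0) 0 E = kestenMcKayDensity (q + 1) E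

/-! ## LL: local law -/

def StLL : Prop :=
  ∀ (q : ℕ) (κ : ℝ), 2 ≤ q → 0 < κ → ∃ s₀ : ℝ, 0 < s₀ ∧
    ∀ (s : ℝ) (π : Measure II) [IsProbabilityMeasure π], 0 ≤ s → s ≤ s₀ →
      LL1 q π s κ ∧ LL2 q π s κ ∧ LL3 q π s κ

/-- log-determinant (Bethe identity) -/
def StLD : Prop :=
  ∀ (q : ℕ) (π : Measure II) [IsProbabilityMeasure π] (s κ : ℝ) (z : ℂ), 0 ≤ s → s ≤ 1 →
    LL1 q π s κ → Bulk q κ z.re → 0 < z.im → LD q π s z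

/-! ## B: Gaussianity -/

def StB1 : Prop :=
  ∀ (q : ℕ) (π : Measure II) [IsProbabilityMeasure π] (s κ : ℝ) (z : ℂ), 2 ≤ q → 0 ≤ s → s ≤ 1 →
    LL1 q π s κ → Bulk q κ z.re → 0 < z.im → LD q π s z → B1Out q π s z

def StB2 : Prop :=
  ∀ (q r : ℕ) (π : Measure II) [IsProbabilityMeasure π] (s E : ℝ) (P : Measure (SState q r))
    [IsProbabilityMeasure P], 0 ≤ s → s ≤ 1 → TreeOK q π s E → IsLimit q r π s E P →
    (∀ k K : ℕ, EntIneq q r π s (zk E k) (P.map (clipS K))) → PMeq q r π s E P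

def StB3 : Prop :=
  ∀ (q r : ℕ) (π : Measure II) [IsProbabilityMeasure π] (s E : ℝ) (P : Measure (SState q r))
    [IsProbabilityMeasure P], 2 ≤ q → TreeOK q π s E → IsLimit q r π s E P →
    PMeq q r π s E P → P.map (edgeOf 0) = waveE q r π s E

def StB0 : Prop :=
  ∀ (q : ℕ) (π : Measure II) [IsProbabilityMeasure π] (s κ E : ℝ), 2 ≤ q → 0 ≤ s → s ≤ 1 →
    Bulk q κ E → TreeOK q π s E → LL2 q π s κ → ZOK q π s E →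
    (∀ k, B1Out q π s (zk E k)) → BOut q π s E

/-! ## M, G, H -/

def StM : Prop :=
  ∀ (q : ℕ) (π : Measure II) [IsProbabilityMeasure π] (s κ E : ℝ), 2 ≤ q → 0 ≤ s → s ≤ 1 →
    0 < κ → Bulk q (2 * κ) E → TreeOK q π s E → LL1 q π s κ → LL3 q π s κ → BOut q π s E →
    ∀ n : ℕ → ℕ, Tendsto n atTop atTop → (∀ j, Even (n j * (q + 1))) →
      H1 n (fun j => rrgLaw q π s E (n j)) ∧ H2 n (fun j => rrgLaw q π s E (n j)) bL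

def StG : Prop :=
  ∀ n : ℕ → ℕ, Tendsto n atTop atTop →
    H1 n (fun j => goeLaw (n j)) ∧ H2 n (fun j => goeLaw (n j)) fun _ x => x⁻¹

def StH : Prop :=
  ∀ (n n' : ℕ → ℕ) (P : ∀ j, Measure (Fin (n j) → ℝ)) (P' : ∀ j, Measure (Fin (n' j) → ℝ))
    (b b' : ℝ → ℝ → ℝ), (∀ j, IsProbabilityMeasure (P j)) → (∀ j, IsProbabilityMeasure (P' j)) →
    GoodB b → GoodB b' → H1 n P → H1 n' P' → H2 n P b → H2 n' P' b' →
    ∀ h : ℝ → ℝ, Continuous h → HasCompactSupport h → (∀ t, 0 ≤ h t) →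
      Tendsto (fun j => ∫ ξ, Real.exp (-∑ i, h (ξ i)) ∂P j - ∫ ξ, Real.exp (-∑ i, h (ξ i)) ∂P' j)
        atTop (𝓝 0)

end Crest.Agent.R166
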