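import Crest.Agent.R166.Main.Tr

/-! # Row 166, assembly: the two statements from the block statements -/

set_option autoImplicit false

open MeasureTheory ProbabilityTheory Filter Topology
open scoped ENNReal NNReal BigOperators Matrix

noncomputable section

namespace Crest.Agent.R166

open Crest.ProbabilityR.RandomMatrix

theorem main_core (hE : StE) (hP1 : StP1) (hT : StT) (hLL : StLL) (hLD : StLD) (hB1 : StB1)
    (hB0 : StB0) (hM : StM) (hG : StG) (hH : StH) {q : ℕ} {κ : ℝ} (hq : 2 ≤ q) (hκ : 0 < κ) :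
    ∃ s₀ C : ℝ, 0 < s₀ ∧ s₀ ≤ 1 ∧ ∀ (s : ℝ) (π : Measure II) [IsProbabilityMeasure π], 0 ≤ s → s ≤ s₀ →
      TreeSmall q π s κ C ∧ ∀ E, Bulk q (2 * κ) E → ZOK q π s E → ∀ h : ℝ → ℝ, Continuous h →
        HasCompactSupport h → (∀ t, 0 ≤ h t) → ∀ ε : ℝ, 0 < ε → ∃ N : ℕ, ∀ n : ℕ, N ≤ n →
          Even (n * (q + 1)) → |∫ ξ, Real.exp (-∑ i, h (ξ i)) ∂rrgLaw q π s E n -
            ∫ ξ, Real.exp (-∑ i, h (ξ i)) ∂goeLaw n| < ε := by
  obtain ⟨s₁, C, h1, h1', hT⟩ := hT q κ hq hκ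
  obtain ⟨s₂, h2, hLL⟩ := hLL q κ hq hκ
  refine ⟨min s₁ s₂, C, lt_min h1 h2, (min_le_left _ _).trans h1', fun s π _ hs hs' => ?_⟩
  obtain ⟨a1, a2⟩ := le_min_iff.1 hs'
  have hs1 : s ≤ 1 := a1.trans h1'
  have ht := hT s π hs a1
  obtain ⟨l1, l2, l3⟩ := hLL s π hs a2
  refine ⟨ht, fun E hb hZ h hc hsupp hpos ε hε => ?_⟩
  have hb' : Bulk q κ E := le_trans hb (by linarith)
  have hre : ∀ k, Bulk q κ (zk E k).re := fun k => by
    rwa [zk, Complex.add_re, Complex.re_ofReal_mul, Complex.I_re, mul_zero, add_zero, Complex.ofReal_re]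
  have him : ∀ k, 0 < (zk E k).im := fun k => by
    rw [zk, Complex.add_im, Complex.im_ofReal_mul, Complex.I_im, mul_one, Complex.ofReal_im, zero_add]
    positivity
  have hB := hB0 q π s κ E hq hs hs1 hb' (ht.ok E hb') l2 hZ fun k =>
    hB1 q π s κ _ hq hs hs1 l1 (hre k) (him k) (hLD q π s κ _ hs hs1 l1 (hre k) (him k))
  obtain ⟨n₀, hn₀⟩ := eventually_atTop.1 (main_prob_rrg hE hP1 q π s E)
  by_contra hcon
  push Not at hcon
  choose n hn hev hbad using fun j => hcon (max j n₀)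
  have htend : Tendsto n atTop atTop :=
    tendsto_atTop_mono (fun j => (le_max_left _ _).trans (hn j)) tendsto_id
  obtain ⟨m1, m2⟩ := hM q π s κ E hq hs hs1 hκ hb (ht.ok E hb') l1 l3 hB n htend hev
  obtain ⟨g1, g2⟩ := hG n htend
  have key := hH n n _ _ _ _ (fun j => hn₀ _ ((le_max_right _ _).trans (hn j)) (hev j))
    (fun j => main_prob_goe hE _) main_goodB_bL main_goodB_inv m1 g1 m2 g2 h hc hsupp hpos
  obtain ⟨j, hj⟩ := (key.abs.eventually (gt_mem_nhds (show |(0 : ℝ)| < ε by simpa))).exists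
  exact hj.not_ge (hbad j)

theorem main0251 (hE : StE) (hP1 : StP1) (hP2 : StP2) (hZ0 : StZ0) (hT : StT) (hKM : StKM)
    (hLL : StLL) (hLD : StLD) (hB1 : StB1) (hB0 : StB0) (hM : StM) (hG : StG) (hH : StH)
    (d : ℕ) (hd : 3 ≤ d) (E : ℝ) (hE' : E ^ 2 < 4 * ((d : ℝ) - 1))
    (h : ℝ → ℝ) (hcont : Continuous h) (hsupp : HasCompactSupport h) (hpos : ∀ t, 0 ≤ h t) :
    ∀ ε : ℝ, 0 < ε → ∃ N : ℕ, ∀ n : ℕ, N ≤ n → (regularGraphs n d).Nonempty →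
      |regularAverage n d (fun G => adjLaplaceWeight G (unfoldAt h (n * kestenMcKayDensity d E) E)) -
          ∫ g, goeLaplaceWeight g (unfoldAt h (n / Real.pi) 0) ∂goeDisorderLaw n| < ε := by
  obtain ⟨q, rfl⟩ : ∃ q, d = q + 1 := ⟨d - 1, by omega⟩
  have hq : 2 ≤ q := by omega
  have h1 : |E| < 2 * √(q : ℝ) := by
    refine abs_lt_of_sq_lt_sq ?_ (by positivity)
    rw [mul_pow, Real.sq_sqrt (Nat.cast_nonneg q)]
    push_cast at hE'
    linarith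
  have hκ : 0 < (2 * √(q : ℝ) - |E|) / 2 := by linarith
  have hb : Bulk q (2 * ((2 * √(q : ℝ) - |E|) / 2)) E := by unfold Bulk; linarith
  have hb' : Bulk q ((2 * √(q : ℝ) - |E|) / 2) E := by unfold Bulk; linarith
  obtain ⟨s₀, C, h0, -, hc⟩ := main_core hE hP1 hT hLL hLD hB1 hB0 hM hG hH hq hκ
  intro ε hε
  obtain ⟨N, hN⟩ := (hc 0 (Measure.dirac II0) le_rfl h0.le).2 E hb (hZ0 q _ 0 E hq hκ hb') h hcont hsupp
    hpos ε hε
  refine ⟨N, fun n hn hne => ?_⟩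
  have := hN n hn (main_even hne)
  rw [← main_rrg_eq hE hP2 n q _ 0 E hcont hpos, ← main_goe_eq hE n hcont, hKM q _ E hq hκ hb'] at this
  simp only [zero_mul, Matrix.diagonal_zero, add_zero, integral_const, probReal_univ, one_smul] at this
  simpa only [adjLaplaceWeight, laplaceWeight, unfoldAt, ← main_ev] using this

theorem main0252 (hE : StE) (hP1 : StP1) (hP2 : StP2) (hZ1 : StZ1) (hT : StT) (hDOS : StDOS)
    (hInv : StInv) (hLL : StLL) (hLD : StLD) (hB1 : StB1) (hB0 : StB0) (hM : StM) (hG : StG) (hH : StH)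
    (d : ℕ) (hd : 3 ≤ d) (κ : ℝ) (hκ : 0 < κ) :
    ∃ s₀ : ℝ, 0 < s₀ ∧ ∀ s : ℝ, 0 < s → s < s₀ →
      ∃ ν : MeasureTheory.Measure ℝ, IsTreeDOS d s ν ∧
        ∃ (ρ : ℝ → ℝ) (U : Set ℝ), IsOpen U ∧
          Set.Icc (-(2 * Real.sqrt ((d : ℝ) - 1)) + κ) (2 * Real.sqrt ((d : ℝ) - 1) - κ) ⊆ U ∧
          ContinuousOn ρ U ∧ (∀ t ∈ U, 0 ≤ ρ t) ∧
          ν.restrict U = (MeasureTheory.volume.restrict U).withDensity (fun t => ENNReal.ofReal (ρ t)) ∧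
          (∀ E ∈ Set.Icc (-(2 * Real.sqrt ((d : ℝ) - 1)) + κ) (2 * Real.sqrt ((d : ℝ) - 1) - κ), 0 < ρ E) ∧
          ∀ E ∈ Set.Icc (-(2 * Real.sqrt ((d : ℝ) - 1)) + κ) (2 * Real.sqrt ((d : ℝ) - 1) - κ),
            ∀ h : ℝ → ℝ, Continuous h → HasCompactSupport h → (∀ t, 0 ≤ h t) →
              ∀ ε : ℝ, 0 < ε → ∃ N : ℕ, ∀ n : ℕ, N ≤ n → d < n → Even (n * d) →
                |regularAverage n d (fun G => ∫ ω, disorderedLaplaceWeight G s ω
                      (unfoldAt h (n * ρ E) E) ∂potentialLaw n) -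
                    ∫ g, goeLaplaceWeight g (unfoldAt h (n / Real.pi) 0) ∂goeDisorderLaw n| < ε := by
  obtain ⟨q, rfl⟩ : ∃ q, d = q + 1 := ⟨d - 1, by omega⟩
  have hq : 2 ≤ q := by omega
  have e : ((q + 1 : ℕ) : ℝ) - 1 = q := by push_cast; ring
  rw [e]
  obtain ⟨s₀, C, h0, h1, hc⟩ := main_core hE hP1 hT hLL hLD hB1 hB0 hM hG hH hq (half_pos hκ)
  refine ⟨s₀, h0, fun s hs hs' => ?_⟩
  have := main_prob_uII
  obtain ⟨ht, hu⟩ := hc s uII hs.le hs'.le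
  obtain ⟨ν, hν, hst⟩ := hDOS q s hs.le (hs'.le.trans h1)
  have := hν.1
  have hset : {E | Bulk q (κ / 2) E} = Set.Icc (-(2 * √(q : ℝ) - κ / 2)) (2 * √(q : ℝ) - κ / 2) :=
    Set.ext fun E => (abs_le : |E| ≤ 2 * √(q : ℝ) - κ / 2 ↔ _)
  have him : ∀ E k, 0 < (zk E k).im := fun E k => by
    rw [zk, Complex.add_im, Complex.im_ofReal_mul, Complex.I_im, mul_one, Complex.ofReal_im, zero_add]
    positivity
  obtain ⟨i1, i2⟩ := hInv ν (rho q uII s) _ _ (by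
    simp only [hst _ (him _ _)]
    exact hset ▸ ht.unif)
  have hpos : ∀ t ∈ Set.Ioo (-(2 * √(q : ℝ) - κ / 2)) (2 * √(q : ℝ) - κ / 2), 0 < rho q uII s t :=
    fun t h => (ht.ok t (abs_le.2 ⟨h.1.le, h.2.le⟩)).rho_pos
  have hsub : Set.Icc (-(2 * √(q : ℝ)) + κ) (2 * √(q : ℝ) - κ) ⊆
      Set.Ioo (-(2 * √(q : ℝ) - κ / 2)) (2 * √(q : ℝ) - κ / 2) :=
    Set.Icc_subset_Ioo (by linarith) (by linarith)
  refine ⟨ν, hν, rho q uII s, _, isOpen_Ioo, hsub, i1.mono Set.Ioo_subset_Icc_self,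
    fun t h => (hpos t h).le, i2, fun E h => hpos E (hsub h), fun E hE' h hcont hsupp hp ε hε => ?_⟩
  obtain ⟨N, hN⟩ := hu E (abs_le.2 ⟨by linarith [hE'.1], by linarith [hE'.2]⟩) (hZ1 q s E hs) h hcont
    hsupp hp ε hε
  refine ⟨N, fun n hn _ hev => ?_⟩
  have := hN n hn hev
  rw [← main_rrg_eq hE hP2 n q _ s E hcont hp, ← main_goe_eq hE n hcont] at this
  simpa only [main_disorder hE _ _ _ _ hcont] using this

end Crest.Agent.R166
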